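import Vale.Agent.P315.H330.H3b

/-!
P315, part B in pure potential form: one fixed path, the machine enters only through a potential
`phi j k` (block `j`, round `k`). Used by the integer (rounded) machine, the weighted machine, etc.
The mixing at the end of an active block is with a FIXED state (uniform), so the potential at the
start of every block is at most `c2`, and the regret bound holds from any block `k0` on (the cut).
-/

set_option linter.unusedSectionVars false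

open Finset

namespace Vale.Agent.P315.H522

open Vale.Agent.P315.H330

/-- Potential form of a run with block restart: `w` = clipped drops of the path, `g` = value of
the path minus look-ahead value of the machine. -/
structure PotRun (cap al be c1 c2 e : ℝ) (r : ℕ) (act : ℕ → Prop)
    (phi w g : ℕ → ℕ → ℝ) : Prop where
  cap_pos : 0 < cap
  nonneg : ∀ j k, k ≤ r → 0 ≤ phi j k
  round : ∀ j k, k < r →
    phi j (k + 1) + al * (cap⁻¹ * w j k) ≤ phi j k + be * (cap⁻¹ * g j k) + e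
  mixA : ∀ j, act j → phi (j + 1) 0 ≤ phi j r + c1
  mixB : ∀ j, act j → phi (j + 1) 0 ≤ c2
  start : phi 0 0 ≤ c2
  keep : ∀ j, ¬ act j → phi (j + 1) 0 ≤ phi j 0

namespace PotRun

variable {cap al be c1 c2 e : ℝ} {r : ℕ} {act : ℕ → Prop} {phi w g : ℕ → ℕ → ℝ}

lemma le_c2 (h : PotRun cap al be c1 c2 e r act phi w g) : ∀ j, phi j 0 ≤ c2 := by
  intro j
  induction j with
  | zero => exact h.start
  | succ j ih =>
    by_cases ha : act j
    · exact h.mixB j ha
    · exact (h.keep j ha).trans ih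

lemma block (h : PotRun cap al be c1 c2 e r act phi w g) (j : ℕ) : ∀ k, k ≤ r →
    phi j k + al * (cap⁻¹ * ∑ t ∈ range k, w j t) ≤
      phi j 0 + be * (cap⁻¹ * ∑ t ∈ range k, g j t) + (k : ℝ) * e := by
  intro k
  induction k with
  | zero => intro _; simp
  | succ k ih =>
    intro hk
    have h1 := ih (by omega)
    have h2 := h.round j k (by omega)
    rw [Finset.sum_range_succ, Finset.sum_range_succ]
    push_cast
    have e1 : al * (cap⁻¹ * (∑ t ∈ range k, w j t + w j k)) =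
        al * (cap⁻¹ * ∑ t ∈ range k, w j t) + al * (cap⁻¹ * w j k) := by ring
    have e2 : be * (cap⁻¹ * (∑ t ∈ range k, g j t + g j k)) =
        be * (cap⁻¹ * ∑ t ∈ range k, g j t) + be * (cap⁻¹ * g j k) := by ring
    rw [e1, e2]
    linarith

/-- **Regret from any block on.** -/
theorem regret (h : PotRun cap al be c1 c2 e r act phi w g) [DecidablePred act]
    (k0 N : ℕ) (hkN : k0 ≤ N) (A : ℕ → Prop) [DecidablePred A] (hA : ∀ j, A j → act j) :
    al * ∑ j ∈ (Ico k0 N).filter A, ∑ t ∈ range r, w j t ≤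
      be * ∑ j ∈ (Ico k0 N).filter A, ∑ t ∈ range r, g j t
      + cap * (c2 + (((Ico k0 N).filter A).card : ℝ) * (c1 + (r : ℝ) * e)
        + (((Ico k0 N).filter (fun j => act j ∧ ¬ A j)).card : ℝ) * c2) := by
  have hci : 0 < cap⁻¹ := inv_pos.2 h.cap_pos
  have key : ∀ N : ℕ, k0 ≤ N →
      phi N 0 + al * (cap⁻¹ * ∑ j ∈ (Ico k0 N).filter A, ∑ t ∈ range r, w j t) ≤
      c2 + be * (cap⁻¹ * ∑ j ∈ (Ico k0 N).filter A, ∑ t ∈ range r, g j t)
        + (((Ico k0 N).filter A).card : ℝ) * (c1 + (r : ℝ) * e)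
        + (((Ico k0 N).filter (fun j => act j ∧ ¬ A j)).card : ℝ) * c2 := by
    intro N hN
    induction N, hN using Nat.le_induction with
    | base => simpa using h.le_c2 k0
    | succ N hN ih =>
      rw [Nat.Ico_succ_right_eq_insert_Ico hN, Finset.filter_insert, Finset.filter_insert]
      have hn1 : N ∉ (Ico k0 N).filter A := by simp
      have hn2 : N ∉ (Ico k0 N).filter (fun j => act j ∧ ¬ A j) := by simp
      by_cases hAN : A N
      · have ha := hA N hAN
        have hnot : ¬ (act N ∧ ¬ A N) := fun hh => hh.2 hAN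
        rw [if_pos hAN, if_neg hnot]
        rw [Finset.sum_insert hn1, Finset.sum_insert hn1, Finset.card_insert_of_notMem hn1]
        have hb := h.block N r le_rfl
        have hm := h.mixA N ha
        push_cast
        have e1 : al * (cap⁻¹ * (∑ t ∈ range r, w N t
            + ∑ j ∈ (Ico k0 N).filter A, ∑ t ∈ range r, w j t)) =
            al * (cap⁻¹ * ∑ t ∈ range r, w N t)
            + al * (cap⁻¹ * ∑ j ∈ (Ico k0 N).filter A, ∑ t ∈ range r, w j t) := by ring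
        have e2 : be * (cap⁻¹ * (∑ t ∈ range r, g N t
            + ∑ j ∈ (Ico k0 N).filter A, ∑ t ∈ range r, g j t)) =
            be * (cap⁻¹ * ∑ t ∈ range r, g N t)
            + be * (cap⁻¹ * ∑ j ∈ (Ico k0 N).filter A, ∑ t ∈ range r, g j t) := by ring
        rw [e1, e2]
        nlinarith [ih, hb, hm]
      · rw [if_neg hAN]
        by_cases ha : act N
        · rw [if_pos (⟨ha, hAN⟩ : act N ∧ ¬ A N), Finset.card_insert_of_notMem hn2]
          have hm := h.mixB N ha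
          have h0 := h.nonneg N 0 (Nat.zero_le _)
          push_cast
          nlinarith [ih, hm, h0]
        · have hnot : ¬ (act N ∧ ¬ A N) := fun hh => ha hh.1
          rw [if_neg hnot]
          have := h.keep N ha
          linarith
  have hk := key N hkN
  have hpos := h.nonneg N 0 (Nat.zero_le _)
  set SW := ∑ j ∈ (Ico k0 N).filter A, ∑ t ∈ range r, w j t with hSW
  set SG := ∑ j ∈ (Ico k0 N).filter A, ∑ t ∈ range r, g j t with hSG
  set nA : ℝ := (((Ico k0 N).filter A).card : ℝ) with hnA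
  set nR : ℝ := (((Ico k0 N).filter (fun j => act j ∧ ¬ A j)).card : ℝ) with hnR
  have h2 : al * (cap⁻¹ * SW) ≤ c2 + be * (cap⁻¹ * SG) + nA * (c1 + (r : ℝ) * e) + nR * c2 := by
    linarith
  have h3 := mul_le_mul_of_nonneg_left h2 h.cap_pos.le
  have e1' : cap * (al * (cap⁻¹ * SW)) = al * SW := by
    rw [← mul_assoc, mul_comm cap al, mul_assoc, ← mul_assoc cap, mul_inv_cancel₀ h.cap_pos.ne',
      one_mul]
  have e2' : cap * (be * (cap⁻¹ * SG)) = be * SG := by
    rw [← mul_assoc, mul_comm cap be, mul_assoc, ← mul_assoc cap, mul_inv_cancel₀ h.cap_pos.ne',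
      one_mul]
  rw [e1'] at h3
  have e3' : cap * (c2 + be * (cap⁻¹ * SG) + nA * (c1 + (r : ℝ) * e) + nR * c2) =
      be * SG + cap * (c2 + nA * (c1 + (r : ℝ) * e) + nR * c2) := by
    rw [← e2']; ring
  linarith

end PotRun

/-! ### Phases -/

variable {I : Type*} [Fintype I]

/-- mass of the windows `[b0+u, b0+u+h)` inside the block `[b0, b0+len)` of the curves `F`, over
the rows `i` whose drop in the whole block is at most `cp i` (sum over the rows) -/
noncomputable def lhsF (F : ℤ → I → ℝ) (cp : I → ℝ) (h len : ℕ) (b0 : ℤ) : ℝ :=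
  ∑ u ∈ (range len).filter (fun u => u + h ≤ len), ∑ i,
    (if F b0 i - F (b0 + len) i ≤ cp i then F (b0 + u) i - F (b0 + u + h) i else 0)

lemma lhs_eq_lhsF {E : Type*} (D : ℤ → I → E → ℝ) (p : I → E) (cap : ℝ) (h len : ℕ) (b0 : ℤ) :
    lhs D p cap h len b0 = lhsF (fun b i => D b i (p i)) (fun _ => cap) h len b0 := rfl

lemma anti_F {F : ℤ → I → ℝ} (hF : ∀ b i, F (b + 1) i ≤ F b i) (i : I) :
    ∀ (b : ℤ) (n : ℕ), F (b + n) i ≤ F b i := by
  intro b n
  induction n with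
  | zero => simp
  | succ n ih =>
    have := hF (b + n) i
    push_cast
    rw [← add_assoc]
    linarith

/-- clipped drop of all rows between `b` and `b + h` -/
noncomputable def wF (F : ℤ → I → ℝ) (cp : I → ℝ) (h : ℕ) (b : ℤ) : ℝ :=
  ∑ i, min (F b i - F (b + h) i) (cp i)

lemma lhsF_le {F : ℤ → I → ℝ} (hF : ∀ b i, F (b + 1) i ≤ F b i)
    {cp : I → ℝ} (hcp : ∀ i, 0 ≤ cp i) (h r : ℕ) (b0 : ℤ) :
    lhsF F cp h (r * h) b0 ≤ ∑ k ∈ range r, ∑ ph ∈ range h,
      wF F cp h (b0 + ((k * h + ph : ℕ) : ℤ)) := by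
  rw [← sum_range_mul' (fun u => wF F cp h (b0 + (u : ℤ))) h r]
  unfold lhsF
  have hnn : ∀ u : ℕ, 0 ≤ wF F cp h (b0 + (u : ℤ)) := by
    intro u
    refine Finset.sum_nonneg fun i _ => ?_
    exact le_min (sub_nonneg.2 (anti_F hF i _ h)) (hcp i)
  refine le_trans ?_ (Finset.sum_le_sum_of_subset_of_nonneg
    (Finset.filter_subset (fun u => u + h ≤ r * h) (range (r * h))) fun u _ _ => hnn u)
  refine Finset.sum_le_sum fun u hu => ?_
  have hu2 : u + h ≤ r * h := (Finset.mem_filter.1 hu).2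
  refine Finset.sum_le_sum fun i _ => ?_
  have h1 : F (b0 + (u : ℤ)) i ≤ F b0 i := anti_F hF i b0 u
  have h2 : F (b0 + ((r * h : ℕ) : ℤ)) i ≤ F (b0 + (u : ℤ) + h) i := by
    have := anti_F hF i (b0 + (u : ℤ) + h) (r * h - (u + h))
    have he : b0 + (u : ℤ) + h + ((r * h - (u + h) : ℕ) : ℤ) = b0 + ((r * h : ℕ) : ℤ) := by
      rw [Nat.cast_sub hu2]
      push_cast
      ring
    rwa [he] at this
  have h3 : F (b0 + (u : ℤ) + h) i ≤ F (b0 + (u : ℤ)) i := anti_F hF i _ h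
  split_ifs with hc
  · refine le_min le_rfl ?_
    linarith
  · exact le_min (by linarith) (hcp i)

/-- **(H3b) in potential form, sum form**: all `h` phases of one machine, blocks `k0 ≤ j < N`. -/
theorem h3b_pot {cap al be c1 c2 e : ℝ} {r h : ℕ} {act : ℕ → Prop} [DecidablePred act]
    {F : ℤ → I → ℝ} (hF : ∀ b i, F (b + 1) i ≤ F b i) {cp : I → ℝ} (hcp : ∀ i, 0 ≤ cp i)
    (hal : 0 ≤ al) (hbe : 0 ≤ be) {o : ℤ} {phi g : ℕ → ℕ → ℕ → ℝ}
    (run : ∀ ph, ph < h → PotRun cap al be c1 c2 e r act (phi ph)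
      (fun j k => wF F cp h (o + ph + ((j * r + k : ℕ) : ℤ) * h)) (g ph))
    (k0 N : ℕ) (hkN : k0 ≤ N) (A : ℕ → Prop) [DecidablePred A] (hA : ∀ j, A j → act j)
    {G : ℤ → ℝ}
    (hG : ∀ ph, ph < h → ∀ j, k0 ≤ j → j < N → A j → ∀ k, k < r →
      g ph j k ≤ G (o + ph + ((j * r + k : ℕ) : ℤ) * h)) :
    al * ∑ j ∈ (Ico k0 N).filter A, lhsF F cp h (r * h) (o + ((j * (r * h) : ℕ) : ℤ)) ≤
      be * ∑ j ∈ (Ico k0 N).filter A, ∑ u ∈ range (r * h), G (o + ((j * (r * h) : ℕ) : ℤ) + u)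
      + (h : ℝ) * (cap * (c2 + (((Ico k0 N).filter A).card : ℝ) * (c1 + (r : ℝ) * e)
        + (((Ico k0 N).filter (fun j => act j ∧ ¬ A j)).card : ℝ) * c2)) := by
  -- one phase
  have hph : ∀ ph, ph < h → al * ∑ j ∈ (Ico k0 N).filter A,
        ∑ k ∈ range r, wF F cp h (o + ph + ((j * r + k : ℕ) : ℤ) * h) ≤
      be * ∑ j ∈ (Ico k0 N).filter A, ∑ k ∈ range r, G (o + ph + ((j * r + k : ℕ) : ℤ) * h)
      + cap * (c2 + (((Ico k0 N).filter A).card : ℝ) * (c1 + (r : ℝ) * e)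
        + (((Ico k0 N).filter (fun j => act j ∧ ¬ A j)).card : ℝ) * c2) := by
    intro ph hph
    have h1 := (run ph hph).regret k0 N hkN A hA
    have h2 : ∑ j ∈ (Ico k0 N).filter A, ∑ k ∈ range r, g ph j k ≤
        ∑ j ∈ (Ico k0 N).filter A, ∑ k ∈ range r, G (o + ph + ((j * r + k : ℕ) : ℤ) * h) := by
      refine Finset.sum_le_sum fun j hj => Finset.sum_le_sum fun k hk => ?_
      have hj' := Finset.mem_filter.1 hj
      have hj2 := Finset.mem_Ico.1 hj'.1
      exact hG ph hph j hj2.1 hj2.2 hj'.2 k (Finset.mem_range.1 hk)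
    have h3 := mul_le_mul_of_nonneg_left h2 hbe
    linarith
  have hsum := Finset.sum_le_sum (s := range h) fun ph hph' => hph ph (Finset.mem_range.1 hph')
  rw [Finset.sum_add_distrib] at hsum
  simp only [Finset.sum_const, Finset.card_range, nsmul_eq_mul] at hsum
  rw [← Finset.mul_sum, ← Finset.mul_sum] at hsum
  -- identify the sums
  have eA : ∀ F : ℕ → ℕ → ℕ → ℝ, ∑ ph ∈ range h, ∑ j ∈ (Ico k0 N).filter A, ∑ k ∈ range r, F ph j k
      = ∑ j ∈ (Ico k0 N).filter A, ∑ k ∈ range r, ∑ ph ∈ range h, F ph j k := by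
    intro F
    rw [Finset.sum_comm]
    refine Finset.sum_congr rfl fun j _ => ?_
    rw [Finset.sum_comm]
  rw [eA, eA] at hsum
  have hidx : ∀ (ph j k : ℕ), o + (ph : ℤ) + ((j * r + k : ℕ) : ℤ) * h =
      o + ((j * (r * h) : ℕ) : ℤ) + ((k * h + ph : ℕ) : ℤ) := by
    intro ph j k
    push_cast
    ring
  have eG : ∑ j ∈ (Ico k0 N).filter A, ∑ k ∈ range r, ∑ ph ∈ range h,
      G (o + ph + ((j * r + k : ℕ) : ℤ) * h) =
      ∑ j ∈ (Ico k0 N).filter A, ∑ u ∈ range (r * h), G (o + ((j * (r * h) : ℕ) : ℤ) + u) := by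
    refine Finset.sum_congr rfl fun j _ => ?_
    rw [sum_range_mul' (fun u => G (o + ((j * (r * h) : ℕ) : ℤ) + u)) h r]
    refine Finset.sum_congr rfl fun k _ => Finset.sum_congr rfl fun ph _ => ?_
    rw [hidx]
  have eL : ∑ j ∈ (Ico k0 N).filter A, lhsF F cp h (r * h) (o + ((j * (r * h) : ℕ) : ℤ)) ≤
      ∑ j ∈ (Ico k0 N).filter A, ∑ k ∈ range r, ∑ ph ∈ range h,
        wF F cp h (o + ph + ((j * r + k : ℕ) : ℤ) * h) := by
    refine Finset.sum_le_sum fun j _ => ?_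
    refine (lhsF_le hF hcp h r _).trans (le_of_eq ?_)
    refine Finset.sum_congr rfl fun k _ => Finset.sum_congr rfl fun ph _ => ?_
    rw [hidx]
  rw [eG] at hsum
  have eL' := mul_le_mul_of_nonneg_left eL hal
  linarith

/-- **(H3b) in potential form, averaged**, for the active blocks of class `c` (`c = 2^-l`):
`c ≤ 2 m j` for the active blocks, total drop after the cut at most one, `cap = C c`,
`Wt` = number (or total weight) of the rows. -/
theorem h3b_fin {c C al be c1 c2 e Wt : ℝ} {r h : ℕ} {act : ℕ → Prop} [DecidablePred act]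
    {F : ℤ → I → ℝ} (hF : ∀ b i, F (b + 1) i ≤ F b i) {cp : I → ℝ} (hcp : ∀ i, 0 ≤ cp i)
    (hal : 0 ≤ al) (hbe : 0 ≤ be) (hc : 0 < c) (hC : 0 < C) (hW : 0 < Wt)
    (hc1 : 0 ≤ c1) (hc2 : 0 ≤ c2) (he : 0 ≤ e)
    {o : ℤ} {phi g : ℕ → ℕ → ℕ → ℝ}
    (run : ∀ ph, ph < h → PotRun (C * c) al be (Wt * c1) (Wt * c2) (Wt * e) r act (phi ph)
      (fun j k => wF F cp h (o + ph + ((j * r + k : ℕ) : ℤ) * h)) (g ph))
    (k0 N : ℕ) (hkN : k0 ≤ N) (A : ℕ → Prop) [DecidablePred A] (hA : ∀ j, A j → act j)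
    {G : ℤ → ℝ} {del : ℝ} (hdel : 0 ≤ del)
    (hG : ∀ ph, ph < h → ∀ j, k0 ≤ j → j < N → A j → ∀ k, k < r →
      g ph j k ≤ Wt * (G (o + ph + ((j * r + k : ℕ) : ℤ) * h) + del))
    {m : ℕ → ℝ} (hm : ∀ j, k0 ≤ j → j < N → act j → c ≤ 2 * m j)
    (hm0 : ∀ j, k0 ≤ j → j < N → 0 ≤ m j) (hm1 : ∑ j ∈ Ico k0 N, m j ≤ 1) :
    al * ∑ j ∈ (Ico k0 N).filter A,
        lhsF F cp h (r * h) (o + ((j * (r * h) : ℕ) : ℤ)) / Wt ≤
      be * ∑ j ∈ (Ico k0 N).filter A, ∑ u ∈ range (r * h), G (o + ((j * (r * h) : ℕ) : ℤ) + u)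
      + ∑ j ∈ (Ico k0 N).filter (fun j => act j ∧ ¬ A j), (h : ℝ) * (2 * C * c2) * m j
      + ((h : ℝ) * (C * c) * c2 + 2 * C * h * (c1 + r * e)
        + be * (2 / c * ((r * h : ℕ) : ℝ) * del)) := by
  have hs := h3b_pot (G := fun b => Wt * (G b + del)) hF hcp hal hbe run k0 N hkN A hA hG
  -- number of active blocks
  have hcard : (((Ico k0 N).filter act).card : ℝ) * c ≤ 2 := by
    have h1 : ∑ j ∈ (Ico k0 N).filter act, c ≤ ∑ j ∈ (Ico k0 N).filter act, 2 * m j := by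
      refine Finset.sum_le_sum fun j hj => ?_
      have hj' := Finset.mem_filter.1 hj
      have hj2 := Finset.mem_Ico.1 hj'.1
      exact hm j hj2.1 hj2.2 hj'.2
    have h2 : ∑ j ∈ (Ico k0 N).filter act, 2 * m j ≤ ∑ j ∈ Ico k0 N, 2 * m j :=
      Finset.sum_le_sum_of_subset_of_nonneg (Finset.filter_subset _ _) fun j hj _ => by
        have hj2 := Finset.mem_Ico.1 hj
        have := hm0 j hj2.1 hj2.2
        linarith
    rw [Finset.sum_const, nsmul_eq_mul] at h1
    have h3 : ∑ j ∈ Ico k0 N, 2 * m j = 2 * ∑ j ∈ Ico k0 N, m j := by rw [Finset.mul_sum]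
    linarith
  have hsubA : ((Ico k0 N).filter A).card ≤ ((Ico k0 N).filter act).card := by
    refine Finset.card_le_card fun j hj => ?_
    have hj' := Finset.mem_filter.1 hj
    exact Finset.mem_filter.2 ⟨hj'.1, hA j hj'.2⟩
  have hcardA : (((Ico k0 N).filter A).card : ℝ) * c ≤ 2 := by
    have : (((Ico k0 N).filter A).card : ℝ) ≤ (((Ico k0 N).filter act).card : ℝ) := by
      exact_mod_cast hsubA
    nlinarith
  have hcardA' : (((Ico k0 N).filter A).card : ℝ) ≤ 2 / c := by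
    rw [le_div_iff₀ hc]; exact hcardA
  set nA : ℝ := (((Ico k0 N).filter A).card : ℝ) with hnA
  have hnA0 : 0 ≤ nA := by rw [hnA]; positivity
  -- the other blocks
  have hrest : (((Ico k0 N).filter (fun j => act j ∧ ¬ A j)).card : ℝ) * (C * c) ≤
      2 * C * ∑ j ∈ (Ico k0 N).filter (fun j => act j ∧ ¬ A j), m j := by
    have : ∑ j ∈ (Ico k0 N).filter (fun j => act j ∧ ¬ A j), C * c ≤
        ∑ j ∈ (Ico k0 N).filter (fun j => act j ∧ ¬ A j), 2 * C * m j := by
      refine Finset.sum_le_sum fun j hj => ?_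
      have hj' := Finset.mem_filter.1 hj
      have hj2 := Finset.mem_Ico.1 hj'.1
      have := hm j hj2.1 hj2.2 hj'.2.1
      nlinarith
    rw [Finset.sum_const, nsmul_eq_mul, ← Finset.mul_sum] at this
    exact this
  set nR : ℝ := (((Ico k0 N).filter (fun j => act j ∧ ¬ A j)).card : ℝ) with hnR
  set SR : ℝ := ∑ j ∈ (Ico k0 N).filter (fun j => act j ∧ ¬ A j), m j with hSR
  -- G sum
  have hGs : ∑ j ∈ (Ico k0 N).filter A, ∑ u ∈ range (r * h),
      Wt * (G (o + ((j * (r * h) : ℕ) : ℤ) + u) + del) =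
      Wt * (∑ j ∈ (Ico k0 N).filter A, ∑ u ∈ range (r * h), G (o + ((j * (r * h) : ℕ) : ℤ) + u)
        + nA * (((r * h : ℕ) : ℝ) * del)) := by
    simp only [Finset.mul_sum, mul_add, Finset.sum_add_distrib, Finset.sum_const,
      Finset.card_range, nsmul_eq_mul]
    rw [hnA]
    ring
  rw [hGs] at hs
  rw [← Finset.sum_div, ← mul_div_assoc, div_le_iff₀ hW]
  set SL : ℝ := ∑ j ∈ (Ico k0 N).filter A, lhsF F cp h (r * h)
    (o + ((j * (r * h) : ℕ) : ℤ)) with hSL
  set SG : ℝ := ∑ j ∈ (Ico k0 N).filter A, ∑ u ∈ range (r * h),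
    G (o + ((j * (r * h) : ℕ) : ℤ) + u) with hSG
  have eR : ∑ j ∈ (Ico k0 N).filter (fun j => act j ∧ ¬ A j), (h : ℝ) * (2 * C * c2) * m j =
      (h : ℝ) * (2 * C * c2) * SR := by
    rw [hSR, Finset.mul_sum]
  rw [eR]
  have hh0 : (0 : ℝ) ≤ h := by positivity
  have hr0 : (0 : ℝ) ≤ r := by positivity
  have hrh0 : (0 : ℝ) ≤ ((r * h : ℕ) : ℝ) := by positivity
  have hce : 0 ≤ c1 + r * e := by positivity
  have t1 : (h : ℝ) * (C * c * (nR * (Wt * c2))) ≤ Wt * ((h : ℝ) * (2 * C * c2) * SR) := by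
    have h7 := mul_le_mul_of_nonneg_left hrest (mul_nonneg (mul_nonneg hW.le hh0) hc2)
    calc (h : ℝ) * (C * c * (nR * (Wt * c2)))
        = Wt * (h : ℝ) * c2 * (nR * (C * c)) := by ring
      _ ≤ Wt * (h : ℝ) * c2 * (2 * C * SR) := h7
      _ = _ := by ring
  have t2 : (h : ℝ) * (C * c * (nA * (Wt * c1 + r * (Wt * e)))) ≤
      Wt * (2 * C * h * (c1 + r * e)) := by
    have h7 := mul_le_mul_of_nonneg_left hcardA
      (mul_nonneg (mul_nonneg (mul_nonneg hW.le hh0) hC.le) hce)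
    calc (h : ℝ) * (C * c * (nA * (Wt * c1 + r * (Wt * e))))
        = Wt * (h : ℝ) * C * (c1 + r * e) * (nA * c) := by ring
      _ ≤ Wt * (h : ℝ) * C * (c1 + r * e) * 2 := h7
      _ = _ := by ring
  have t3 : Wt * (nA * (((r * h : ℕ) : ℝ) * del)) ≤ Wt * (2 / c * ((r * h : ℕ) : ℝ) * del) := by
    have h7 := mul_le_mul_of_nonneg_left hcardA'
      (mul_nonneg (mul_nonneg hW.le hrh0) hdel)
    calc Wt * (nA * (((r * h : ℕ) : ℝ) * del))
        = Wt * ((r * h : ℕ) : ℝ) * del * nA := by ring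
      _ ≤ Wt * ((r * h : ℕ) : ℝ) * del * (2 / c) := h7
      _ = _ := by ring
  have t3' := mul_le_mul_of_nonneg_left t3 hbe
  have hexp : be * (Wt * (SG + nA * (((r * h : ℕ) : ℝ) * del)))
      + (h : ℝ) * (C * c * (Wt * c2 + nA * (Wt * c1 + r * (Wt * e)) + nR * (Wt * c2))) =
      Wt * (be * SG) + be * (Wt * (nA * (((r * h : ℕ) : ℝ) * del)))
      + Wt * ((h : ℝ) * (C * c) * c2)
      + (h : ℝ) * (C * c * (nA * (Wt * c1 + r * (Wt * e))))
      + (h : ℝ) * (C * c * (nR * (Wt * c2))) := by ring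
  rw [hexp] at hs
  have hfin : (be * SG + (h : ℝ) * (2 * C * c2) * SR
      + ((h : ℝ) * (C * c) * c2 + 2 * C * h * (c1 + r * e)
        + be * (2 / c * ((r * h : ℕ) : ℝ) * del))) * Wt =
      Wt * (be * SG) + Wt * ((h : ℝ) * (2 * C * c2) * SR) + Wt * ((h : ℝ) * (C * c) * c2)
        + Wt * (2 * C * h * (c1 + r * e)) + be * (Wt * (2 / c * ((r * h : ℕ) : ℝ) * del)) := by
    ring
  rw [hfin]
  linarith

end Vale.Agent.P315.H522
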